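import Vale.Agent.P126.Defs

/-!
# P126: basic facts on covering numbers
-/

namespace Vale.Agent.P126

open scoped Pointwise

variable {n : ℕ}

/-- A compact set is covered by finitely many translates of a set with nonempty interior. -/
theorem exists_cover {A B : Set (EuclideanSpace ℝ (Fin n))} (hA : IsCompact A)
    (hB : (interior B).Nonempty) :
    ∃ N : ℕ, ∃ c : Fin N → EuclideanSpace ℝ (Fin n), A ⊆ ⋃ i, (c i +ᵥ B) := by
  obtain ⟨z, hz⟩ := hB
  have hopen : ∀ x : EuclideanSpace ℝ (Fin n), IsOpen ((x - z) +ᵥ interior B) := fun x =>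
    isOpen_interior.vadd _
  have hcov : A ⊆ ⋃ x : EuclideanSpace ℝ (Fin n), ((x - z) +ᵥ interior B) := by
    intro x _
    refine Set.mem_iUnion.2 ⟨x, ?_⟩
    refine ⟨z, hz, ?_⟩
    simp
  obtain ⟨t, ht⟩ := hA.elim_finite_subcover _ hopen hcov
  refine ⟨t.card, fun i => (t.equivFin.symm i : EuclideanSpace ℝ (Fin n)) - z, ?_⟩
  intro x hx
  obtain ⟨y, hy⟩ := Set.mem_iUnion.1 (ht hx)
  obtain ⟨hyt, hy⟩ := Set.mem_iUnion.1 hy
  refine Set.mem_iUnion.2 ⟨t.equivFin ⟨y, hyt⟩, ?_⟩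
  simp only [Equiv.symm_apply_apply]
  exact Set.vadd_set_mono interior_subset hy

/-- The covering number is attained. -/
theorem covNum_spec {A B : Set (EuclideanSpace ℝ (Fin n))} (hA : IsCompact A)
    (hB : (interior B).Nonempty) :
    ∃ c : Fin (covNum A B) → EuclideanSpace ℝ (Fin n), A ⊆ ⋃ i, (c i +ᵥ B) :=
  Nat.sInf_mem (s := {N : ℕ | ∃ c : Fin N → EuclideanSpace ℝ (Fin n), A ⊆ ⋃ i, (c i +ᵥ B)})
    (exists_cover hA hB)

/-- Any cover indexed by a finite type bounds the covering number. -/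
theorem covNum_le_card {A B : Set (EuclideanSpace ℝ (Fin n))} {ι : Type*} [Fintype ι]
    (c : ι → EuclideanSpace ℝ (Fin n)) (h : A ⊆ ⋃ i, (c i +ᵥ B)) :
    covNum A B ≤ Fintype.card ι := by
  apply Nat.sInf_le
  refine ⟨fun i => c ((Fintype.equivFin ι).symm i), ?_⟩
  intro x hx
  obtain ⟨i, hi⟩ := Set.mem_iUnion.1 (h hx)
  refine Set.mem_iUnion.2 ⟨Fintype.equivFin ι i, ?_⟩
  simpa using hi

/-- Any cover by a finset of centres bounds the covering number. -/
theorem covNum_le_finset_card {A B : Set (EuclideanSpace ℝ (Fin n))}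
    (T : Finset (EuclideanSpace ℝ (Fin n))) (h : A ⊆ ⋃ t ∈ T, (t +ᵥ B)) :
    covNum A B ≤ T.card := by
  have := covNum_le_card (A := A) (B := B) (ι := T) (fun t => (t : EuclideanSpace ℝ (Fin n))) (by
    intro x hx
    obtain ⟨t, ht⟩ := Set.mem_iUnion.1 (h hx)
    obtain ⟨htT, ht⟩ := Set.mem_iUnion.1 ht
    exact Set.mem_iUnion.2 ⟨⟨t, htT⟩, ht⟩)
  simpa using this

end Vale.Agent.P126
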