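import Mathlib

/-!
# P126: a Gilbert-Varshamov type bound

There is a binary code of length `d`, relative distance larger than `1/4`, with at least
`6^d / (3^(d/4) 4^d)` words.
-/

namespace Vale.Agent.P126

open Finset

variable {ι : Type*} [Fintype ι] [DecidableEq ι]

theorem sum_three_pow (τ : ι → Bool) :
    ∑ τ' : ι → Bool, 3 ^ (Fintype.card ι - hammingDist τ τ') = 4 ^ Fintype.card ι := by
  have h1 : ∀ τ' : ι → Bool, 3 ^ (Fintype.card ι - hammingDist τ τ')
      = ∏ i, (if τ i ≠ τ' i then 1 else 3) := by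
    intro τ'
    rw [Finset.prod_ite, Finset.prod_const_one, one_mul, Finset.prod_const]
    congr 1
    have := Finset.card_filter_add_card_filter_not (s := (Finset.univ : Finset ι))
      (fun i => τ i ≠ τ' i)
    rw [Finset.card_univ] at this
    unfold hammingDist
    omega
  simp_rw [h1]
  have h2 := Finset.prod_univ_sum (fun _ : ι => (Finset.univ : Finset Bool))
    (fun i c => if τ i ≠ c then 1 else 3)
  rw [Fintype.piFinset_univ] at h2
  rw [← h2]
  have h3 : ∀ i, ∑ c : Bool, (if τ i ≠ c then 1 else 3) = 4 := by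
    intro i
    cases τ i <;> simp
  simp_rw [h3]
  simp

theorem card_ball_mul_le (τ : ι → Bool) :
    (Finset.univ.filter (fun τ' : ι → Bool => 4 * hammingDist τ τ' ≤ Fintype.card ι)).card
      * 3 ^ (Fintype.card ι - Fintype.card ι / 4) ≤ 4 ^ Fintype.card ι := by
  rw [← sum_three_pow τ, ← smul_eq_mul, ← Finset.sum_const]
  refine le_trans (Finset.sum_le_sum ?_) (Finset.sum_le_sum_of_subset (Finset.filter_subset _ _))
  intro τ' hτ'
  rw [Finset.mem_filter] at hτ'
  apply Nat.pow_le_pow_right (by norm_num)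
  omega

theorem exists_code (ι : Type*) [Fintype ι] [DecidableEq ι] :
    ∃ C : Finset (ι → Bool),
      (∀ τ ∈ C, ∀ τ' ∈ C, τ ≠ τ' → Fintype.card ι < 4 * hammingDist τ τ') ∧
      6 ^ Fintype.card ι ≤ C.card * 3 ^ (Fintype.card ι / 4) * 4 ^ Fintype.card ι := by
  classical
  set d := Fintype.card ι with hd
  let isCode : Finset (ι → Bool) → Prop := fun C =>
    ∀ τ ∈ C, ∀ τ' ∈ C, τ ≠ τ' → d < 4 * hammingDist τ τ'
  have hne : (Finset.univ.filter isCode).Nonempty := ⟨∅, by simp [isCode]⟩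
  obtain ⟨C, hC, hmax⟩ := Finset.exists_max_image _ Finset.card hne
  rw [Finset.mem_filter] at hC
  refine ⟨C, hC.2, ?_⟩
  -- the balls around the code words cover everything
  have hcover : (Finset.univ : Finset (ι → Bool)) ⊆
      C.biUnion (fun c => Finset.univ.filter (fun τ' : ι → Bool => 4 * hammingDist c τ' ≤ d)) := by
    intro τ _
    by_contra hτ
    rw [Finset.mem_biUnion] at hτ
    push Not at hτ
    have hfar : ∀ c ∈ C, d < 4 * hammingDist c τ := by
      intro c hc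
      have := hτ c hc
      rw [Finset.mem_filter] at this
      push Not at this
      exact this (Finset.mem_univ _)
    have hτC : τ ∉ C := by
      intro h
      have := hfar τ h
      simp at this
    have hcode : isCode (insert τ C) := by
      intro a ha b hb hab
      rw [Finset.mem_insert] at ha hb
      rcases ha with rfl | ha
      · rcases hb with rfl | hb
        · exact absurd rfl hab
        · rw [hammingDist_comm]; exact hfar b hb
      · rcases hb with rfl | hb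
        · exact hfar a ha
        · exact hC.2 a ha b hb hab
    have := hmax (insert τ C) (Finset.mem_filter.2 ⟨Finset.mem_univ _, hcode⟩)
    rw [Finset.card_insert_of_notMem hτC] at this
    omega
  have h1 : 2 ^ d ≤ ∑ c ∈ C,
      (Finset.univ.filter (fun τ' : ι → Bool => 4 * hammingDist c τ' ≤ d)).card := by
    have := Finset.card_le_card hcover
    rw [Finset.card_univ, Fintype.card_fun, Fintype.card_bool] at this
    exact le_trans this Finset.card_biUnion_le
  have h2 : 2 ^ d * 3 ^ (d - d / 4) ≤ C.card * 4 ^ d := by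
    calc 2 ^ d * 3 ^ (d - d / 4) ≤ (∑ c ∈ C,
          (Finset.univ.filter (fun τ' : ι → Bool => 4 * hammingDist c τ' ≤ d)).card)
            * 3 ^ (d - d / 4) := Nat.mul_le_mul_right _ h1
      _ = ∑ c ∈ C, (Finset.univ.filter (fun τ' : ι → Bool => 4 * hammingDist c τ' ≤ d)).card
            * 3 ^ (d - d / 4) := Finset.sum_mul _ _ _
      _ ≤ ∑ _c ∈ C, 4 ^ d := Finset.sum_le_sum (fun c _ => card_ball_mul_le c)
      _ = C.card * 4 ^ d := by simp
  have h3 : (3 : ℕ) ^ d = 3 ^ (d - d / 4) * 3 ^ (d / 4) := by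
    rw [← pow_add]; congr 1; omega
  calc 6 ^ d = 2 ^ d * 3 ^ d := by rw [← mul_pow]; norm_num
    _ = (2 ^ d * 3 ^ (d - d / 4)) * 3 ^ (d / 4) := by rw [h3]; ring
    _ ≤ (C.card * 4 ^ d) * 3 ^ (d / 4) := Nat.mul_le_mul_right _ h2
    _ = C.card * 3 ^ (d / 4) * 4 ^ d := by ring

/-- numerical consequence: if the code has at most `N` words then `8 ^ d ≤ N ^ 16` -/
theorem eight_pow_le {d c N : ℕ} (h : 6 ^ d ≤ c * 3 ^ (d / 4) * 4 ^ d) (hc : c ≤ N) :
    8 ^ d ≤ N ^ 16 := by
  -- fourth power: 1296^d ≤ N^4 768^d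
  have h1 : 6 ^ d ≤ N * 3 ^ (d / 4) * 4 ^ d := by
    refine le_trans h ?_
    gcongr
  have h2 : (6 ^ d) ^ 4 ≤ (N * 3 ^ (d / 4) * 4 ^ d) ^ 4 := Nat.pow_le_pow_left h1 4
  have h3 : (3 ^ (d / 4)) ^ 4 ≤ 3 ^ d := by
    rw [← pow_mul]
    apply Nat.pow_le_pow_right (by norm_num)
    omega
  have h4 : 1296 ^ d ≤ N ^ 4 * 768 ^ d := by
    calc 1296 ^ d = (6 ^ d) ^ 4 := by rw [← pow_mul, mul_comm, pow_mul]; norm_num
      _ ≤ (N * 3 ^ (d / 4) * 4 ^ d) ^ 4 := h2
      _ = N ^ 4 * (3 ^ (d / 4)) ^ 4 * (4 ^ d) ^ 4 := by ring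
      _ ≤ N ^ 4 * 3 ^ d * (4 ^ d) ^ 4 := by gcongr
      _ = N ^ 4 * (3 ^ d * (4 ^ 4) ^ d) := by rw [← pow_mul, ← pow_mul, mul_comm d 4]; ring
      _ = N ^ 4 * 768 ^ d := by rw [← mul_pow]; norm_num
  have h5 : (1296 ^ d) ^ 4 ≤ (N ^ 4 * 768 ^ d) ^ 4 := Nat.pow_le_pow_left h4 4
  have h6 : 8 ^ d * (768 ^ d) ^ 4 ≤ N ^ 16 * (768 ^ d) ^ 4 := by
    calc 8 ^ d * (768 ^ d) ^ 4 = (8 * 768 ^ 4) ^ d := by
          rw [← pow_mul, mul_comm d 4, pow_mul, ← mul_pow]
      _ ≤ (1296 ^ 4) ^ d := Nat.pow_le_pow_left (by norm_num) d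
      _ = (1296 ^ d) ^ 4 := by rw [← pow_mul, ← pow_mul, mul_comm]
      _ ≤ (N ^ 4 * 768 ^ d) ^ 4 := h5
      _ = N ^ 16 * (768 ^ d) ^ 4 := by ring
  exact Nat.le_of_mul_le_mul_right h6 (by positivity)

end Vale.Agent.P126
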