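import Vale.Agent.P126.Basic

/-!
# P126: cubes, and the cube / cross-polytope example
-/

namespace Vale.Agent.P126

open scoped Pointwise

variable {n : ℕ}

/-- the cube of half-side `r` -/
def cube (n : ℕ) (r : ℝ) : Set (EuclideanSpace ℝ (Fin n)) := {x | ∀ i, |x i| ≤ r}

theorem cube_symmBody {r : ℝ} (hr : 0 < r) : SymmBody (cube n r) := by
  refine ⟨?_, ?_, ?_, ?_⟩
  · apply Metric.isCompact_of_isClosed_isBounded
    · have : cube n r = ⋂ i : Fin n, {x : EuclideanSpace ℝ (Fin n) | |x i| ≤ r} := by
        ext x; simp [cube]
      rw [this]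
      apply isClosed_iInter
      intro i
      apply isClosed_le _ continuous_const
      fun_prop
    · refine (Metric.isBounded_closedBall (x := (0 : EuclideanSpace ℝ (Fin n)))
        (r := Real.sqrt (∑ _i : Fin n, r ^ 2))).subset ?_
      intro x hx
      rw [mem_closedBall_zero_iff, EuclideanSpace.norm_eq]
      apply Real.sqrt_le_sqrt
      apply Finset.sum_le_sum
      intro i _
      have := hx i
      rw [Real.norm_eq_abs]
      exact pow_le_pow_left₀ (abs_nonneg _) this 2
  · intro x hx y hy a b ha hb hab i
    have h1 := hx i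
    have h2 := hy i
    have : (a • x + b • y) i = a * x i + b * y i := by simp
    rw [this]
    calc |a * x i + b * y i| ≤ |a * x i| + |b * y i| := abs_add_le _ _
      _ = a * |x i| + b * |y i| := by rw [abs_mul, abs_mul, abs_of_nonneg ha, abs_of_nonneg hb]
      _ ≤ a * r + b * r := by gcongr
      _ = r := by rw [← add_mul, hab, one_mul]
  · refine ⟨0, ?_⟩
    rw [mem_interior]
    refine ⟨Metric.ball 0 r, ?_, Metric.isOpen_ball, Metric.mem_ball_self hr⟩
    intro x hx i
    rw [mem_ball_zero_iff] at hx
    have := PiLp.norm_apply_le x i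
    rw [Real.norm_eq_abs] at this
    linarith
  · intro x hx i
    simpa using hx i

/-- inner product in coordinates -/
theorem inner_eq_sum (x y : EuclideanSpace ℝ (Fin n)) : inner ℝ x y = ∑ i, x i * y i := by
  rw [PiLp.inner_apply]
  apply Finset.sum_congr rfl
  intro i _
  simp [mul_comm]

/-- The vertices of a cube of half-side `> 1` need pairwise different unit cubes. -/
theorem two_pow_le_of_cover {l : ℝ} (hl : 1 < l) {N : ℕ} (c : Fin N → EuclideanSpace ℝ (Fin n))
    (h : cube n l ⊆ ⋃ i, (c i +ᵥ cube n 1)) : 2 ^ n ≤ N := by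
  classical
  let v : (Fin n → Bool) → EuclideanSpace ℝ (Fin n) :=
    fun s => WithLp.toLp 2 (fun i => if s i then l else -l)
  have hv : ∀ s, v s ∈ cube n l := by
    intro s i
    by_cases hs : s i
    · simp [v, hs, abs_of_pos (by linarith : (0:ℝ) < l)]
    · simp [v, hs, abs_of_pos (by linarith : (0:ℝ) < l)]
  have hex : ∀ s, ∃ i, v s ∈ c i +ᵥ cube n 1 := fun s => Set.mem_iUnion.1 (h (hv s))
  choose f hf using hex
  have hinj : Function.Injective f := by
    intro s t hst
    funext j
    by_contra hne
    obtain ⟨p, hp, hp'⟩ := hf s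
    obtain ⟨q, hq, hq'⟩ := hf t
    rw [hst] at hp'
    have h1 := hp j
    have h2 := hq j
    have e1 : v s j = c (f t) j + p j := by rw [← hp']; simp
    have e2 : v t j = c (f t) j + q j := by rw [← hq']; simp
    rw [abs_le] at h1 h2
    by_cases hs : s j
    · have ht : t j = false := by
        cases htj : t j
        · rfl
        · exact absurd (hs.trans htj.symm) hne
      simp [v, hs] at e1
      simp [v, ht] at e2
      linarith [h1.1, h1.2, h2.1, h2.2]
    · have hs' : s j = false := by simpa using hs
      have ht : t j = true := by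
        cases htj : t j
        · exact absurd (hs'.trans htj.symm) hne
        · rfl
      simp [v, hs'] at e1
      simp [v, ht] at e2
      linarith [h1.1, h1.2, h2.1, h2.2]
  have := Fintype.card_le_of_injective f hinj
  simpa using this

theorem two_pow_le_covNum_cube {l : ℝ} (hl : 1 < l) :
    2 ^ n ≤ covNum (cube n l) (cube n 1) := by
  obtain ⟨c, hc⟩ := covNum_spec (cube_symmBody (n := n) (by linarith : (0:ℝ) < l)).isCompact
    (cube_symmBody (n := n) one_pos).interior_nonempty
  exact two_pow_le_of_cover hl c hc

/-- The polar of the unit cube lies in the cross-polytope. -/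
theorem sum_abs_le_of_mem_polar_cube {y : EuclideanSpace ℝ (Fin n)} (hy : y ∈ polar (cube n 1)) :
    ∑ i, |y i| ≤ 1 := by
  let x : EuclideanSpace ℝ (Fin n) := WithLp.toLp 2 (fun i => if 0 ≤ y i then 1 else -1)
  have hx : x ∈ cube n 1 := by
    intro i
    by_cases h : 0 ≤ y i <;> simp [x, h]
  have := hy x hx
  rw [inner_eq_sum] at this
  refine le_trans (le_of_eq ?_) this
  apply Finset.sum_congr rfl
  intro i _
  by_cases h : 0 ≤ y i
  · simp [x, h, abs_of_nonneg h]
  · simp [x, h, abs_of_neg (not_le.1 h)]

/-- A scaled cross-polytope lies in the polar of the cube of half-side `l`. -/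
theorem mem_polar_cube_of_sum_abs_le {l : ℝ} {w : EuclideanSpace ℝ (Fin n)}
    (hw : l * ∑ i, |w i| ≤ 1) : w ∈ polar (cube n l) := by
  intro x hx
  rw [inner_eq_sum]
  refine le_trans ?_ hw
  rw [Finset.mul_sum]
  apply Finset.sum_le_sum
  intro i _
  calc x i * w i ≤ |x i * w i| := le_abs_self _
    _ = |x i| * |w i| := abs_mul _ _
    _ ≤ l * |w i| := by gcongr; exact hx i

/-- The cross-polytope is covered by `2n+1` translates of its `n/(n+1)`-multiple; stated for
polars of cubes. -/
theorem covNum_polar_cube_le {a l : ℝ} (ha : 0 < a) (hn : 1 ≤ n)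
    (hal : a * l = 1 + 1 / n) :
    covNum (polar (cube n 1)) (a⁻¹ • polar (cube n l)) ≤ 2 * n + 1 := by
  classical
  have hn0 : (0:ℝ) < n := by exact_mod_cast hn
  set e : ℝ := 1 / (n + 1) with he
  have he0 : 0 < e := by positivity
  -- key membership criterion
  have key : ∀ w : EuclideanSpace ℝ (Fin n), ∑ i, |w i| ≤ 1 - e → w ∈ a⁻¹ • polar (cube n l) := by
    intro w hw
    rw [Set.mem_inv_smul_set_iff₀ ha.ne']
    apply mem_polar_cube_of_sum_abs_le
    have : ∑ i, |(a • w) i| = a * ∑ i, |w i| := by
      rw [Finset.mul_sum]
      apply Finset.sum_congr rfl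
      intro i _
      simp [abs_mul, abs_of_pos ha]
    rw [this, ← mul_assoc, mul_comm l a, hal]
    calc (1 + 1 / (n:ℝ)) * ∑ i, |w i| ≤ (1 + 1 / (n:ℝ)) * (1 - e) := by gcongr
      _ = 1 := by rw [he]; field_simp; ring
  let c : Option (Fin n × Bool) → EuclideanSpace ℝ (Fin n) := fun o =>
    match o with
    | none => 0
    | some (i, true) => EuclideanSpace.single i e
    | some (i, false) => EuclideanSpace.single i (-e)
  have hcov : polar (cube n 1) ⊆ ⋃ o, (c o +ᵥ (a⁻¹ • polar (cube n l))) := by
    intro y hy
    have hy1 := sum_abs_le_of_mem_polar_cube hy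
    by_cases hbig : ∃ i, e ≤ |y i|
    · obtain ⟨i, hi⟩ := hbig
      by_cases hpos : 0 ≤ y i
      · refine Set.mem_iUnion.2 ⟨some (i, true), y - EuclideanSpace.single i e, key _ ?_, ?_⟩
        · rw [abs_of_nonneg hpos] at hi
          have : ∑ j, |(y - EuclideanSpace.single i e) j| = ∑ j, |y j| - e := by
            rw [← Finset.add_sum_erase _ _ (Finset.mem_univ i),
              ← Finset.add_sum_erase (a := i) _ (fun j => |y j|) (Finset.mem_univ i)]
            have h1 : |(y - EuclideanSpace.single i e) i| = |y i| - e := by
              simp [abs_of_nonneg hpos, abs_of_nonneg (sub_nonneg.2 hi)]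
            have h2 : ∑ j ∈ Finset.univ.erase i, |(y - EuclideanSpace.single i e) j|
                = ∑ j ∈ Finset.univ.erase i, |y j| := by
              apply Finset.sum_congr rfl
              intro j hj
              have : j ≠ i := (Finset.mem_erase.1 hj).1
              simp [this]
            rw [h1, h2]; ring
          rw [this]; linarith
        · simp [c]
      · have hneg : y i < 0 := not_le.1 hpos
        refine Set.mem_iUnion.2 ⟨some (i, false), y - EuclideanSpace.single i (-e), key _ ?_, ?_⟩
        · rw [abs_of_neg hneg] at hi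
          have : ∑ j, |(y - EuclideanSpace.single i (-e)) j| = ∑ j, |y j| - e := by
            rw [← Finset.add_sum_erase _ _ (Finset.mem_univ i),
              ← Finset.add_sum_erase (a := i) _ (fun j => |y j|) (Finset.mem_univ i)]
            have h1 : |(y - EuclideanSpace.single i (-e)) i| = |y i| - e := by
              have : (y - EuclideanSpace.single i (-e)) i = y i + e := by simp
              rw [this, abs_of_neg hneg, abs_of_nonpos (by linarith)]; ring
            have h2 : ∑ j ∈ Finset.univ.erase i, |(y - EuclideanSpace.single i (-e)) j|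
                = ∑ j ∈ Finset.univ.erase i, |y j| := by
              apply Finset.sum_congr rfl
              intro j hj
              have : j ≠ i := (Finset.mem_erase.1 hj).1
              simp [this]
            rw [h1, h2]; ring
          rw [this]; linarith
        · simp [c]
    · push Not at hbig
      refine Set.mem_iUnion.2 ⟨none, y, key _ ?_, ?_⟩
      · calc ∑ i, |y i| ≤ ∑ _i : Fin n, e := Finset.sum_le_sum (fun i _ => (hbig i).le)
          _ = n * e := by simp
          _ = 1 - e := by rw [he]; field_simp; ring
      · simp [c]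
  have := covNum_le_card c hcov
  simpa [Fintype.card_option, Fintype.card_prod, mul_comm] using this

end Vale.Agent.P126
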