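import Mathlib

/-!
# P126: definitions for the duality conjecture for metric entropy

Everything lives in Euclidean space `EuclideanSpace ℝ (Fin n)` with its standard inner product.
-/

namespace Vale.Agent.P126

open scoped Pointwise

/-- The covering number `N(A,B)`: the least number of translates `x + B`, with arbitrary centres
`x`, whose union contains `A`. -/
noncomputable def covNum {n : ℕ} (A B : Set (EuclideanSpace ℝ (Fin n))) : ℕ :=
  sInf {N : ℕ | ∃ c : Fin N → EuclideanSpace ℝ (Fin n), A ⊆ ⋃ i, (c i +ᵥ B)}

/-- The polar body `K° = {y : ⟨x,y⟩ ≤ 1 for all x ∈ K}`. -/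
def polar {n : ℕ} (K : Set (EuclideanSpace ℝ (Fin n))) : Set (EuclideanSpace ℝ (Fin n)) :=
  {y | ∀ x ∈ K, inner ℝ x y ≤ 1}

/-- Origin-symmetric convex body: compact, convex, nonempty interior, `K = -K`. -/
structure SymmBody {n : ℕ} (K : Set (EuclideanSpace ℝ (Fin n))) : Prop where
  isCompact : IsCompact K
  convex : Convex ℝ K
  interior_nonempty : (interior K).Nonempty
  symm : ∀ x ∈ K, -x ∈ K

/-- The two inequalities of the duality conjecture with the constants `a` (scale) and
`b` (factor), for all dimensions and all pairs of origin-symmetric convex bodies. -/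
def DualityHolds (a b : ℝ) : Prop :=
  ∀ n : ℕ, 1 ≤ n → ∀ K L : Set (EuclideanSpace ℝ (Fin n)), SymmBody K → SymmBody L →
    (1 / b) * Real.log (covNum (polar L) (a • polar K)) ≤ Real.log (covNum K L) ∧
    Real.log (covNum K L) ≤ b * Real.log (covNum (polar L) (a⁻¹ • polar K))

end Vale.Agent.P126
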