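import Vale.Agent.P126.Shatter
import Vale.Agent.P126.Code

/-!
# P126: the abstract packing bound

`K` and `U` are symmetric convex sets in a real inner product space.  If `K` is covered by `N` sets
of `U`-diameter at most `2`, then every family of points of `U` which is pairwise `20`-separated
with respect to `sup_{x ∈ K} ⟨x, ·⟩` has at most `exp (73 (log N)^3)` members.
-/

namespace Vale.Agent.P126

open Finset

variable {E : Type*} [NormedAddCommGroup E] [InnerProductSpace ℝ E]

/-- the standing assumptions -/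
structure Setup (K U : Set E) (N : ℕ) (G : Fin N → Set E) : Prop where
  hKc : Convex ℝ K
  hKs : ∀ x ∈ K, -x ∈ K
  hUc : Convex ℝ U
  hUs : ∀ y ∈ U, -y ∈ U
  hcov : K ⊆ ⋃ i, G i
  hdiam : ∀ i, ∀ x ∈ G i, ∀ x' ∈ G i, ∀ y ∈ U, inner ℝ (x - x') y ≤ 2

theorem smul_mem_of_abs_le {K : Set E} (hKc : Convex ℝ K) (hKs : ∀ x ∈ K, -x ∈ K) {x : E}
    (hx : x ∈ K) {t : ℝ} (ht : |t| ≤ 1) : t • x ∈ K := by
  rw [abs_le] at ht
  have := hKc hx (hKs x hx) (a := (1 + t) / 2) (b := (1 - t) / 2) (by linarith) (by linarith)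
    (by ring)
  have e : ((1 + t) / 2) • x + ((1 - t) / 2) • (-x) = t • x := by
    rw [smul_neg, ← sub_eq_add_neg, ← sub_smul]; congr 1; ring
  rwa [e] at this

variable {K U : Set E} {N : ℕ} {G : Fin N → Set E}

/-- `K ⊆ N L` in dual form -/
theorem Setup.range (S : Setup K U N G) {x y : E} (hx : x ∈ K) (hy : y ∈ U) :
    inner ℝ x y ≤ N := by
  have hN : 0 < N := by
    rcases Nat.eq_zero_or_pos N with h | h
    · subst h
      obtain ⟨i, _⟩ := Set.mem_iUnion.1 (S.hcov hx)
      exact i.elim0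
    · exact h
  have hN' : (0 : ℝ) < N := by exact_mod_cast hN
  let t : Fin (N + 1) → ℝ := fun j => -1 + 2 * (j : ℝ) / N
  have ht : ∀ j, |t j| ≤ 1 := by
    intro j
    have h1 : (j : ℝ) ≤ N := by exact_mod_cast Nat.lt_succ_iff.1 j.2
    have h0 : (0 : ℝ) ≤ j := Nat.cast_nonneg _
    rw [abs_le]
    constructor
    · have : 0 ≤ 2 * (j : ℝ) / N := by positivity
      simp only [t]; linarith
    · have : 2 * (j : ℝ) / N ≤ 2 := by rw [div_le_iff₀ hN']; linarith
      simp only [t]; linarith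
  have hmem : ∀ j, ∃ i, t j • x ∈ G i := fun j =>
    Set.mem_iUnion.1 (S.hcov (smul_mem_of_abs_le S.hKc S.hKs hx (ht j)))
  choose f hf using hmem
  obtain ⟨j, k, hjk, hfjk⟩ := Fintype.exists_ne_map_eq_of_card_lt f (by simp)
  -- general estimate for `j < k`
  have main : ∀ j k : Fin (N + 1), j < k → f j = f k → inner ℝ x y ≤ N := by
    intro j k hlt hfe
    have h1 := S.hdiam (f k) (t k • x) (hf k) (t j • x) (hfe ▸ hf j) y hy
    rw [← sub_smul, real_inner_smul_left] at h1
    have h2 : t k - t j = 2 * ((k : ℝ) - j) / N := by simp only [t]; field_simp; ring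
    have h3 : (1 : ℝ) ≤ (k : ℝ) - j := by
      have : (j : ℕ) + 1 ≤ k := hlt
      have : ((j : ℕ) : ℝ) + 1 ≤ ((k : ℕ) : ℝ) := by exact_mod_cast this
      linarith
    rw [h2] at h1
    by_contra hcon
    push Not at hcon
    have h4 : 2 * ((k : ℝ) - j) / N * inner ℝ x y > 2 := by
      have : 2 * ((k : ℝ) - j) / N * inner ℝ x y = (2 * ((k : ℝ) - j)) * (inner ℝ x y / N) := by
        ring
      rw [this]
      have h5 : 1 < inner ℝ x y / N := by rw [lt_div_iff₀ hN']; linarith
      nlinarith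
    linarith
  rcases lt_or_gt_of_ne hjk with h | h
  · exact main j k h hfjk
  · exact main k j h hfjk.symm

theorem Setup.range_neg (S : Setup K U N G) {x y : E} (hx : x ∈ K) (hy : y ∈ U) :
    -(N : ℝ) ≤ inner ℝ x y := by
  have := S.range hx (S.hUs y hy)
  rw [inner_neg_right] at this
  linarith

/-- discretisation of the functional `y` on the net `xs` -/
noncomputable def enc (xs : Fin N → E) (y : E) : Fin N → ℕ :=
  fun k => ⌊(inner ℝ (xs k) y + N) / 8⌋₊

theorem Setup.enc_lt (S : Setup K U N G) {xs : Fin N → E} (hxs : ∀ k, xs k ∈ K) {y : E}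
    (hy : y ∈ U) (k : Fin N) : enc xs y k < N / 4 + 1 := by
  have h1 := S.range (hxs k) hy
  have h2 : enc xs y k ≤ ⌊(N : ℝ) / 4⌋₊ := by
    apply Nat.floor_le_floor
    linarith
  have h3 : ⌊(N : ℝ) / 4⌋₊ = N / 4 := by
    have := Nat.floor_div_natCast (N : ℝ) 4
    simpa using this
  omega

theorem Setup.enc_le (S : Setup K U N G) {xs : Fin N → E} (hxs : ∀ k, xs k ∈ K) {y : E}
    (hy : y ∈ U) (k : Fin N) : (enc xs y k : ℝ) ≤ (inner ℝ (xs k) y + N) / 8 := by
  apply Nat.floor_le
  have := S.range_neg (hxs k) hy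
  linarith

theorem lt_enc_add_one (xs : Fin N → E) (y : E) (k : Fin N) :
    (inner ℝ (xs k) y + N) / 8 < (enc xs y k : ℝ) + 1 := Nat.lt_floor_add_one _

/-- A strongly shattered pattern produces many well separated points of `K`. -/
theorem Setup.shatter_bound (S : Setup K U N G) (hN : 1 ≤ N) {xs : Fin N → E}
    (hxs : ∀ k, xs k ∈ K) (T : Finset E) (hT : ∀ y ∈ T, y ∈ U) (p : Fin N → Option ℕ)
    (hp : Shatters (T.image (enc xs)) p) : 8 ^ (supp p).card ≤ N ^ 16 := by
  classical
  set A := supp p with hA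
  rcases Nat.eq_zero_or_pos A.card with h0 | hd
  · rw [h0, pow_zero]
    exact Nat.one_le_pow _ _ hN
  have hd' : (0 : ℝ) < A.card := by exact_mod_cast hd
  have hY : ∀ σ : Fin N → Bool, ∃ y ∈ T, ∀ k s, p k = some s →
      (if σ k then s + 1 ≤ enc xs y k else enc xs y k + 1 ≤ s) := by
    intro σ
    obtain ⟨f, hf, hf'⟩ := hp σ
    obtain ⟨y, hy, rfl⟩ := Finset.mem_image.1 hf
    exact ⟨y, hy, hf'⟩
  choose Y hYT hY' using hY
  let w : (Fin N → Bool) → E := fun σ => (1 / 2 : ℝ) • (Y σ - Y (fun k => !σ k))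
  have hwU : ∀ σ, w σ ∈ U := by
    intro σ
    have := S.hUc (hT _ (hYT σ)) (S.hUs _ (hT _ (hYT (fun k => !σ k))))
      (a := 1 / 2) (b := 1 / 2) (by norm_num) (by norm_num) (by norm_num)
    have e : (1 / 2 : ℝ) • Y σ + (1 / 2 : ℝ) • (-Y (fun k => !σ k)) = w σ := by
      simp only [w]; rw [smul_sub, smul_neg, sub_eq_add_neg]
    rwa [e] at this
  let sg : Bool → ℝ := fun c => if c then 1 else -1
  have key : ∀ σ : Fin N → Bool, ∀ k ∈ A, 4 ≤ sg (σ k) * inner ℝ (xs k) (w σ) := by
    intro σ k hk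
    obtain ⟨s, hs⟩ := Option.ne_none_iff_exists'.1 (mem_supp.1 hk)
    have h1 := hY' σ k s hs
    have h2 := hY' (fun k => !σ k) k s hs
    have hw : inner ℝ (xs k) (w σ)
        = (inner ℝ (xs k) (Y σ) - inner ℝ (xs k) (Y (fun k => !σ k))) / 2 := by
      simp only [w]; rw [real_inner_smul_right, inner_sub_right]; ring
    have a1 := S.enc_le hxs (hT _ (hYT σ)) k
    have a2 := lt_enc_add_one xs (Y σ) k
    have b1 := S.enc_le hxs (hT _ (hYT (fun k => !σ k))) k
    have b2 := lt_enc_add_one xs (Y (fun k => !σ k)) k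
    cases hσ : σ k
    · simp only [hσ, Bool.false_eq_true, if_false, Bool.not_false, if_true] at h1 h2
      have h1' : (enc xs (Y σ) k : ℝ) + 1 ≤ s := by exact_mod_cast h1
      have h2' : (s : ℝ) + 1 ≤ enc xs (Y (fun k => !σ k)) k := by exact_mod_cast h2
      simp only [sg, Bool.false_eq_true, if_false]
      rw [hw]; linarith
    · simp only [hσ, if_true, Bool.not_true, Bool.false_eq_true, if_false] at h1 h2
      have h1' : (s : ℝ) + 1 ≤ enc xs (Y σ) k := by exact_mod_cast h1
      have h2' : (enc xs (Y (fun k => !σ k)) k : ℝ) + 1 ≤ s := by exact_mod_cast h2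
      simp only [sg, if_true]
      rw [hw]; linarith
  let ext : (A → Bool) → (Fin N → Bool) := fun τ k => if h : k ∈ A then τ ⟨k, h⟩ else false
  let z : (A → Bool) → E := fun τ => ∑ k : A, (1 / (A.card : ℝ)) • (sg (τ k) • xs k)
  have hzK : ∀ τ, z τ ∈ K := by
    intro τ
    apply S.hKc.sum_mem
    · intro _ _; positivity
    · rw [Finset.sum_const, Finset.card_univ, Fintype.card_coe, nsmul_eq_mul]
      field_simp
    · intro k _
      cases τ k
      · simp only [sg, Bool.false_eq_true, if_false, neg_smul, one_smul]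
        exact S.hKs _ (hxs k)
      · simp only [sg, if_true, one_smul]
        exact hxs k
  have hinner : ∀ τ τ' : A → Bool,
      (8 / (A.card : ℝ)) * hammingDist τ τ' ≤ inner ℝ (z τ - z τ') (w (ext τ)) := by
    intro τ τ'
    have e1 : inner ℝ (z τ - z τ') (w (ext τ)) = ∑ k : A, (1 / (A.card : ℝ)) *
        ((sg (τ k) - sg (τ' k)) * inner ℝ (xs k) (w (ext τ))) := by
      simp only [z]
      rw [← Finset.sum_sub_distrib, sum_inner]
      apply Finset.sum_congr rfl
      intro k _
      rw [← smul_sub, ← sub_smul, real_inner_smul_left, real_inner_smul_left]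
    have e2 : (8 / (A.card : ℝ)) * hammingDist τ τ'
        = ∑ k : A, (if τ k ≠ τ' k then 8 / (A.card : ℝ) else 0) := by
      rw [← Finset.sum_filter, Finset.sum_const, nsmul_eq_mul, mul_comm]
      rfl
    rw [e1, e2]
    apply Finset.sum_le_sum
    intro k _
    have hk := key (ext τ) k k.2
    have hext : ext τ k = τ k := by simp [ext]
    rw [hext] at hk
    by_cases hne : τ k = τ' k
    · simp [hne]
    · rw [if_pos hne]
      have hsg : sg (τ k) - sg (τ' k) = 2 * sg (τ k) := by
        cases h1 : τ k <;> cases h2 : τ' k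
        · exact absurd (h1.trans h2.symm) hne
        · simp only [sg, Bool.false_eq_true, if_false, if_true]; ring
        · simp only [sg, Bool.false_eq_true, if_false, if_true]; ring
        · exact absurd (h1.trans h2.symm) hne
      rw [hsg]
      have : (1 / (A.card : ℝ)) * (2 * sg (τ k) * inner ℝ (xs k) (w (ext τ)))
          = (2 / (A.card : ℝ)) * (sg (τ k) * inner ℝ (xs k) (w (ext τ))) := by ring
      rw [this]
      have h8 : 8 / (A.card : ℝ) = (2 / (A.card : ℝ)) * 4 := by ring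
      rw [h8]
      exact mul_le_mul_of_nonneg_left hk (div_nonneg (by norm_num) hd'.le)
  obtain ⟨C, hC, hCcard⟩ := exists_code A
  have hidx : ∀ τ : A → Bool, ∃ i, z τ ∈ G i := fun τ => Set.mem_iUnion.1 (S.hcov (hzK τ))
  choose g hg using hidx
  have hCN : C.card ≤ N := by
    have := Finset.card_le_card_of_injOn (s := C) (t := (Finset.univ : Finset (Fin N))) g
      (fun _ _ => Finset.mem_univ _) (by
        intro τ hτ τ' hτ' hgg
        by_contra hne
        have h1 := hC τ hτ τ' hτ' hne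
        rw [Fintype.card_coe] at h1
        have h2 := S.hdiam (g τ) (z τ) (hg τ) (z τ') (hgg ▸ hg τ') (w (ext τ)) (hwU _)
        have h3 := hinner τ τ'
        have h4 : (A.card : ℝ) < 4 * hammingDist τ τ' := by exact_mod_cast h1
        have h5 : (8 / (A.card : ℝ)) * hammingDist τ τ' ≤ 2 := le_trans h3 h2
        rw [div_mul_eq_mul_div, div_le_iff₀ hd'] at h5
        linarith)
    simpa using this
  have := eight_pow_le hCcard hCN
  rwa [Fintype.card_coe] at this

/-- the final numerical estimate -/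
theorem numeric {N P d r b : ℕ} (hN : 2 ≤ N) (hb : b ≤ N) (hb1 : 1 ≤ b) (hd : 8 ^ d ≤ N ^ 16)
    (hr : 2 ^ r ≤ 2 * (N * b + 1) ^ d) (hP : P < 2 * (N * b) ^ r) (hP1 : 1 ≤ P) :
    Real.log P ≤ 73 * (Real.log N) ^ 3 := by
  set x := Real.log N with hx
  set c := Real.log 2 with hc
  have hN' : (2 : ℝ) ≤ N := by exact_mod_cast hN
  have hN0 : (0 : ℝ) < N := by linarith
  have hb0 : (0 : ℝ) < b := by exact_mod_cast hb1
  have hc1 : 0.6931 < c := by have := Real.log_two_gt_d9; rw [hc]; linarith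
  have hc0 : 0 < c := by linarith
  have hcx : c ≤ x := Real.log_le_log (by norm_num) hN'
  have hx0 : 0 < x := by linarith
  have h1 : 3 * d * c ≤ 16 * x := by
    have : Real.log ((8 : ℝ) ^ d) ≤ Real.log ((N : ℝ) ^ 16) := by
      apply Real.log_le_log (by positivity)
      exact_mod_cast hd
    rw [Real.log_pow, Real.log_pow] at this
    have h8 : Real.log 8 = 3 * c := by
      rw [show (8 : ℝ) = 2 ^ 3 by norm_num, Real.log_pow, hc]; norm_num
    rw [h8] at this
    push_cast at this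
    linarith
  have h2 : r * c ≤ c + 3 * d * x := by
    have h : Real.log ((2 : ℝ) ^ r) ≤ Real.log (2 * ((N : ℝ) * b + 1) ^ d) := by
      apply Real.log_le_log (by positivity)
      exact_mod_cast hr
    rw [Real.log_pow, Real.log_mul (by norm_num) (by positivity), Real.log_pow] at h
    have h' : Real.log ((N : ℝ) * b + 1) ≤ 3 * x := by
      have : Real.log ((N : ℝ) * b + 1) ≤ Real.log ((N : ℝ) ^ 3) := by
        apply Real.log_le_log (by positivity)
        have hbN : (b : ℝ) ≤ N := by exact_mod_cast hb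
        nlinarith [mul_le_mul_of_nonneg_left hbN hN0.le, mul_pos hN0 hN0]
      rw [Real.log_pow] at this
      push_cast at this
      exact this
    have : (d : ℝ) * Real.log ((N : ℝ) * b + 1) ≤ d * (3 * x) := by gcongr
    linarith
  have h3 : Real.log P ≤ c + 2 * r * x := by
    have h : Real.log P ≤ Real.log (2 * ((N : ℝ) * b) ^ r) := by
      apply Real.log_le_log (by exact_mod_cast hP1)
      exact_mod_cast hP.le
    rw [Real.log_mul (by norm_num) (by positivity), Real.log_pow] at h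
    have h' : Real.log ((N : ℝ) * b) ≤ 2 * x := by
      rw [Real.log_mul hN0.ne' hb0.ne']
      have : Real.log b ≤ x := Real.log_le_log hb0 (by exact_mod_cast hb)
      linarith
    have : (r : ℝ) * Real.log ((N : ℝ) * b) ≤ r * (2 * x) := by gcongr
    linarith
  have h4 : r * c ^ 2 ≤ c ^ 2 + 16 * x ^ 2 := by
    have e1 : (r * c) * c ≤ (c + 3 * d * x) * c := by gcongr
    have e2 : (3 * d * c) * x ≤ (16 * x) * x := by gcongr
    nlinarith
  have h5 : Real.log P * c ^ 2 ≤ c ^ 3 + 2 * x * (c ^ 2 + 16 * x ^ 2) := by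
    have e1 : Real.log P * c ^ 2 ≤ (c + 2 * r * x) * c ^ 2 := by gcongr
    have e2 : 2 * x * (r * c ^ 2) ≤ 2 * x * (c ^ 2 + 16 * x ^ 2) := by gcongr
    nlinarith
  have h6 : c ^ 3 + 2 * x * (c ^ 2 + 16 * x ^ 2) ≤ 35 * x ^ 3 := by
    have e1 : c ^ 3 ≤ x ^ 3 := pow_le_pow_left₀ hc0.le hcx 3
    have e2 : c ^ 2 ≤ x ^ 2 := pow_le_pow_left₀ hc0.le hcx 2
    have e3 : x * c ^ 2 ≤ x * x ^ 2 := by gcongr
    nlinarith
  have h7 : 35 ≤ 73 * c ^ 2 := by nlinarith
  have h8 : 35 * x ^ 3 ≤ (73 * c ^ 2) * x ^ 3 := by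
    have : 0 ≤ x ^ 3 := by positivity
    gcongr
  have h9 : Real.log P * c ^ 2 ≤ (73 * x ^ 3) * c ^ 2 := by nlinarith
  exact le_of_mul_le_mul_right h9 (by positivity)

/-- **The abstract packing bound.** -/
theorem Setup.packing (S : Setup K U N G) (T : Finset E) (hT : ∀ y ∈ T, y ∈ U)
    (hsep : ∀ t ∈ T, ∀ t' ∈ T, t ≠ t' → ∃ x ∈ K, 20 < inner ℝ x (t - t')) :
    Real.log T.card ≤ 73 * (Real.log N) ^ 3 := by
  classical
  have hRHS : 0 ≤ 73 * (Real.log N) ^ 3 := by
    have := Real.log_natCast_nonneg N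
    positivity
  by_cases h2 : T.card ≤ 1
  · refine le_trans ?_ hRHS
    interval_cases T.card <;> simp
  push Not at h2
  obtain ⟨t0, ht0, t0', ht0', hne0⟩ := Finset.one_lt_card.1 h2
  obtain ⟨x0, hx0, hx0'⟩ := hsep t0 ht0 t0' ht0' hne0
  have hN : 2 ≤ N := by
    by_contra hcon
    push Not at hcon
    have hN1 : (N : ℝ) ≤ 1 := by exact_mod_cast Nat.lt_succ_iff.1 hcon
    have a1 := S.range hx0 (hT _ ht0)
    have a2 := S.range hx0 (S.hUs _ (hT _ ht0'))
    rw [inner_neg_right] at a2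
    rw [inner_sub_right] at hx0'
    linarith
  let xs : Fin N → E := fun i => if h : (G i ∩ K).Nonempty then h.some else x0
  have hxs : ∀ k, xs k ∈ K := by
    intro k
    by_cases h : (G k ∩ K).Nonempty
    · simp only [xs, dif_pos h]; exact h.some_mem.2
    · simp only [xs, dif_neg h]; exact hx0
  have hnet : ∀ x ∈ K, ∃ k, x ∈ G k ∧ xs k ∈ G k := by
    intro x hx
    obtain ⟨k, hk⟩ := Set.mem_iUnion.1 (S.hcov hx)
    have h : (G k ∩ K).Nonempty := ⟨x, hk, hx⟩
    refine ⟨k, hk, ?_⟩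
    simp only [xs, dif_pos h]; exact h.some_mem.1
  have hsep' : ∀ t ∈ T, ∀ t' ∈ T, t ≠ t' → ∃ k, enc xs t' k + 2 ≤ enc xs t k := by
    intro t ht t' ht' hne
    obtain ⟨x, hx, hx'⟩ := hsep t ht t' ht' hne
    obtain ⟨k, hk1, hk2⟩ := hnet x hx
    refine ⟨k, ?_⟩
    have a1 := S.hdiam k x hk1 (xs k) hk2 t (hT _ ht)
    have a2 := S.hdiam k x hk1 (xs k) hk2 (-t') (S.hUs _ (hT _ ht'))
    rw [inner_neg_right] at a2
    rw [inner_sub_left] at a1 a2
    rw [inner_sub_right] at hx'
    have b1 := lt_enc_add_one xs t k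
    have b2 := S.enc_le hxs (hT _ ht') k
    have : (enc xs t' k : ℝ) + 1 < enc xs t k := by linarith
    have : enc xs t' k + 1 < enc xs t k := by exact_mod_cast this
    omega
  have hinj : Set.InjOn (enc xs) (↑T : Set E) := by
    intro t ht t' ht' he
    by_contra hne
    obtain ⟨k, hk⟩ := hsep' t ht t' ht' hne
    rw [he] at hk
    omega
  set F := T.image (enc xs) with hF
  have hFcard : F.card = T.card := Finset.card_image_of_injOn hinj
  set b := N / 4 + 1 with hb
  set d := Nat.log 8 (N ^ 16) with hd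
  set r := Nat.log 2 ((N * b + 1) ^ d) + 1 with hr
  have hlt : F.card < 2 * (Fintype.card (Fin N) * b) ^ r := by
    apply card_lt_of_shatter_bound b d r F
    · intro f hf k
      obtain ⟨y, hy, rfl⟩ := Finset.mem_image.1 hf
      exact S.enc_lt hxs (hT _ hy) k
    · intro f hf g hg hne
      obtain ⟨t, ht, rfl⟩ := Finset.mem_image.1 hf
      obtain ⟨t', ht', rfl⟩ := Finset.mem_image.1 hg
      have hne' : t ≠ t' := fun h => hne (h ▸ rfl)
      obtain ⟨k, hk⟩ := hsep' t ht t' ht' hne'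
      exact ⟨k, Finset.mem_univ _, Or.inr hk⟩
    · intro p hp
      exact Nat.le_log_of_pow_le (by norm_num) (S.shatter_bound (by omega) hxs T hT p hp)
    · rw [Fintype.card_fin]
      exact Nat.lt_pow_succ_log_self (by norm_num) _
    · omega
  rw [Fintype.card_fin, hFcard] at hlt
  apply numeric hN (b := b) (d := d) (r := r) (by omega) (by omega) _ _ hlt (by omega)
  · exact Nat.pow_log_le_self 8 (by positivity)
  · rw [hr, pow_succ, mul_comm]
    exact Nat.mul_le_mul_left 2 (Nat.pow_log_le_self 2 (by positivity))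

end Vale.Agent.P126
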