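import Vale.Agent.P126.Basic

/-!
# P126: facts on polars of symmetric convex bodies, and maximal separated sets
-/

namespace Vale.Agent.P126

open scoped Pointwise

variable {n : ℕ}

theorem polar_convex (K : Set (EuclideanSpace ℝ (Fin n))) : Convex ℝ (polar K) := by
  intro y hy y' hy' a b ha hb hab x hx
  rw [inner_add_right, real_inner_smul_right, real_inner_smul_right]
  have h1 := hy x hx
  have h2 := hy' x hx
  nlinarith

theorem polar_symm {K : Set (EuclideanSpace ℝ (Fin n))} (hK : ∀ x ∈ K, -x ∈ K) :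
    ∀ y ∈ polar K, -y ∈ polar K := by
  intro y hy x hx
  have := hy (-x) (hK x hx)
  rwa [inner_neg_left, ← inner_neg_right] at this

theorem zero_mem_polar (K : Set (EuclideanSpace ℝ (Fin n))) : (0 : EuclideanSpace ℝ (Fin n)) ∈ polar K := by
  intro x _
  simp

theorem polar_isClosed (K : Set (EuclideanSpace ℝ (Fin n))) : IsClosed (polar K) := by
  have : polar K = ⋂ x ∈ K, {y : EuclideanSpace ℝ (Fin n) | inner ℝ x y ≤ 1} := by
    ext y; simp [polar]
  rw [this]
  apply isClosed_biInter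
  intro x _
  exact isClosed_le (by fun_prop) continuous_const

theorem SymmBody.zero_mem_interior {K : Set (EuclideanSpace ℝ (Fin n))} (hK : SymmBody K) :
    (0 : EuclideanSpace ℝ (Fin n)) ∈ interior K := by
  obtain ⟨z, hz⟩ := hK.interior_nonempty
  have hneg : (-1 : ℝ) • K = K := by
    ext x
    rw [Set.mem_smul_set]
    constructor
    · rintro ⟨w, hw, rfl⟩
      simpa using hK.symm w hw
    · intro hx
      exact ⟨-x, hK.symm x hx, by simp⟩
  have hz' : -z ∈ interior K := by
    have : (-1 : ℝ) • z ∈ (-1 : ℝ) • interior K := Set.smul_mem_smul_set hz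
    rw [← interior_smul₀ (by norm_num : (-1 : ℝ) ≠ 0), hneg] at this
    simpa using this
  have := hK.convex.interior hz hz' (a := 1 / 2) (b := 1 / 2) (by norm_num) (by norm_num)
    (by norm_num)
  simpa using this

theorem SymmBody.zero_mem {K : Set (EuclideanSpace ℝ (Fin n))} (hK : SymmBody K) :
    (0 : EuclideanSpace ℝ (Fin n)) ∈ K := interior_subset hK.zero_mem_interior

theorem SymmBody.polar {K : Set (EuclideanSpace ℝ (Fin n))} (hK : SymmBody K) :
    SymmBody (polar K) := by
  refine ⟨?_, polar_convex K, ?_, polar_symm hK.symm⟩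
  · apply Metric.isCompact_of_isClosed_isBounded (polar_isClosed K)
    obtain ⟨e, he, hball⟩ := Metric.mem_nhds_iff.1 (mem_interior_iff_mem_nhds.1 hK.zero_mem_interior)
    refine (Metric.isBounded_closedBall (x := (0 : EuclideanSpace ℝ (Fin n))) (r := 2 / e)).subset ?_
    intro y hy
    rw [mem_closedBall_zero_iff]
    by_cases hy0 : y = 0
    · rw [hy0, norm_zero]; positivity
    have hny : 0 < ‖y‖ := norm_pos_iff.2 hy0
    have hx : ((e / 2) / ‖y‖) • y ∈ K := by
      apply hball
      rw [mem_ball_zero_iff, norm_smul, Real.norm_eq_abs, abs_of_pos (by positivity)]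
      rw [div_mul_cancel₀ _ hny.ne']
      linarith
    have := hy _ hx
    rw [real_inner_smul_left, real_inner_self_eq_norm_sq] at this
    have e1 : e / 2 / ‖y‖ * ‖y‖ ^ 2 = e / 2 * ‖y‖ := by field_simp
    rw [e1] at this
    rw [le_div_iff₀ he]
    linarith
  · obtain ⟨R, hR⟩ := hK.isCompact.isBounded.subset_closedBall (0 : EuclideanSpace ℝ (Fin n))
    refine ⟨0, ?_⟩
    rw [mem_interior]
    refine ⟨Metric.ball 0 (1 / (|R| + 1)), ?_, Metric.isOpen_ball,
      Metric.mem_ball_self (by positivity)⟩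
    intro y hy x hx
    rw [mem_ball_zero_iff] at hy
    have hx' := hR hx
    rw [mem_closedBall_zero_iff] at hx'
    have hx'' : ‖x‖ ≤ |R| + 1 := by linarith [le_abs_self R]
    calc inner ℝ x y ≤ ‖x‖ * ‖y‖ := real_inner_le_norm x y
      _ ≤ (|R| + 1) * (1 / (|R| + 1)) := by gcongr
      _ = 1 := by field_simp

theorem interior_smul_nonempty {K : Set (EuclideanSpace ℝ (Fin n))}
    (hK : (interior K).Nonempty) {a : ℝ} (ha : a ≠ 0) : (interior (a • K)).Nonempty := by
  rw [interior_smul₀ ha]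
  exact hK.smul_set

/-- the bipolar theorem in the form needed -/
theorem exists_polar_gt {L : Set (EuclideanSpace ℝ (Fin n))} (hL : SymmBody L)
    {x : EuclideanSpace ℝ (Fin n)} (hx : x ∉ L) : ∃ y ∈ polar L, 1 < inner ℝ y x := by
  obtain ⟨f, u, hf, hu⟩ := geometric_hahn_banach_closed_point hL.convex hL.isCompact.isClosed hx
  have hu0 : 0 < u := by
    have := hf 0 hL.zero_mem
    simpa using this
  set y0 := (InnerProductSpace.toDual ℝ (EuclideanSpace ℝ (Fin n))).symm f with hy0
  have hy : ∀ a, inner ℝ y0 a = f a := fun a => by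
    rw [hy0]; exact InnerProductSpace.toDual_symm_apply
  refine ⟨(1 / u) • y0, ?_, ?_⟩
  · intro a ha
    rw [real_inner_smul_right, real_inner_comm, hy]
    have := hf a ha
    rw [one_div, inv_mul_le_iff₀ hu0]
    linarith
  · rw [real_inner_smul_left, hy, one_div, lt_inv_mul_iff₀ hu0]
    linarith

/-- A bound for all separated subsets yields a cover of the same size. -/
theorem cover_of_packing_bound {U W : Set (EuclideanSpace ℝ (Fin n))}
    (h0 : (0 : EuclideanSpace ℝ (Fin n)) ∈ W) (hWs : ∀ w ∈ W, -w ∈ W) (R : ℝ)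
    (hR : ∀ T : Finset (EuclideanSpace ℝ (Fin n)), (∀ y ∈ T, y ∈ U) →
      (∀ t ∈ T, ∀ t' ∈ T, t ≠ t' → t - t' ∉ W) → Real.log T.card ≤ R) :
    ∃ T : Finset (EuclideanSpace ℝ (Fin n)), U ⊆ ⋃ t ∈ T, (t +ᵥ W) ∧ Real.log T.card ≤ R := by
  classical
  let P : ℕ → Prop := fun k => ∃ T : Finset (EuclideanSpace ℝ (Fin n)), (∀ y ∈ T, y ∈ U) ∧
    (∀ t ∈ T, ∀ t' ∈ T, t ≠ t' → t - t' ∉ W) ∧ T.card = k
  set M := ⌊Real.exp R⌋₊ with hM
  have hbound : ∀ k, P k → k ≤ M := by
    rintro k ⟨T, h1, h2, rfl⟩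
    rcases Nat.eq_zero_or_pos T.card with h | h
    · rw [h]; exact Nat.zero_le _
    · apply Nat.le_floor
      have := hR T h1 h2
      rwa [Real.log_le_iff_le_exp (by exact_mod_cast h)] at this
  have hP0 : P 0 := ⟨∅, by simp, by simp, rfl⟩
  obtain ⟨T, h1, h2, h3⟩ := Nat.findGreatest_spec (P := P) (Nat.zero_le M) hP0
  refine ⟨T, ?_, hR T h1 h2⟩
  intro y hy
  by_cases hyT : y ∈ T
  · refine Set.mem_iUnion.2 ⟨y, Set.mem_iUnion.2 ⟨hyT, 0, h0, by simp⟩⟩
  · have hnot : ¬ P (T.card + 1) := by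
      intro hP
      have hle := hbound _ hP
      exact Nat.findGreatest_is_greatest (P := P) (by omega) hle hP
    have : ¬ (∀ t ∈ insert y T, ∀ t' ∈ insert y T, t ≠ t' → t - t' ∉ W) := by
      intro hs
      apply hnot
      refine ⟨insert y T, ?_, hs, Finset.card_insert_of_notMem hyT⟩
      intro z hz
      rcases Finset.mem_insert.1 hz with rfl | hz
      · exact hy
      · exact h1 z hz
    push Not at this
    obtain ⟨t, ht, t', ht', hne, hW⟩ := this
    rcases Finset.mem_insert.1 ht with rfl | ht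
    · rcases Finset.mem_insert.1 ht' with rfl | ht'
      · exact absurd rfl hne
      · exact Set.mem_iUnion.2 ⟨t', Set.mem_iUnion.2 ⟨ht', t - t', hW, by simp⟩⟩
    · rcases Finset.mem_insert.1 ht' with rfl | ht'
      · refine Set.mem_iUnion.2 ⟨t, Set.mem_iUnion.2 ⟨‹t ∈ T›, t' - t, ?_, by simp⟩⟩
        have := hWs _ hW
        simpa using this
      · exact absurd hW (h2 t ht t' ht' hne)

end Vale.Agent.P126
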