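import Mathlib

/-!
# P126: a combinatorial packing lemma (Alon, Ben-David, Cesa-Bianchi, Haussler type)

A family of functions `X → {0,…,b-1}` that is pairwise separated (two distinct members differ by
at least `2` somewhere) and has many members strongly shatters many patterns.
-/

namespace Vale.Agent.P126

open Finset

variable {X : Type*}

/-- `F` strongly shatters the pattern `p` (a function defined on a subset of `X`, the levels):
every way of going above / below the levels is realised by a member of `F` with margin one. -/
def Shatters (F : Finset (X → ℕ)) (p : X → Option ℕ) : Prop :=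
  ∀ σ : X → Bool, ∃ f ∈ F, ∀ x s, p x = some s → (if σ x then s + 1 ≤ f x else f x + 1 ≤ s)

theorem Shatters.mono {F G : Finset (X → ℕ)} (h : F ⊆ G) {p : X → Option ℕ} (hp : Shatters F p) :
    Shatters G p := by
  intro σ
  obtain ⟨f, hf, hfp⟩ := hp σ
  exact ⟨f, h hf, hfp⟩

/-- pairwise separation on the coordinate set `D` -/
def Separated (D : Finset X) (F : Finset (X → ℕ)) : Prop :=
  ∀ f ∈ F, ∀ g ∈ F, f ≠ g → ∃ x ∈ D, f x + 2 ≤ g x ∨ g x + 2 ≤ f x

/-- the pigeonhole step -/
theorem exists_two_popular [DecidableEq X] (b h : ℕ) (hh : 1 ≤ h) (D : Finset X)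
    (F : Finset (X → ℕ))
    (hb : ∀ f ∈ F, ∀ x, f x < b) (hsep : Separated D F) (h2 : 2 ≤ F.card)
    (hcard : 2 * (D.card * b * h) ≤ F.card) :
    ∃ x ∈ D, ∃ i j : ℕ, i + 2 ≤ j ∧ j < b ∧ 2 * h ≤ (F.filter (fun f => f x = i)).card ∧
      2 * h ≤ (F.filter (fun f => f x = j)).card := by
  have : DecidableEq (X → ℕ) := Classical.decEq _
  by_contra hcon
  push Not at hcon
  -- `M = |D| b ≥ 3`
  obtain ⟨f0, hf0, g0, hg0, hne0⟩ := Finset.one_lt_card.1 (by omega : 1 < F.card)
  obtain ⟨x0, hx0, hx0'⟩ := hsep f0 hf0 g0 hg0 hne0
  have hb3 : 3 ≤ b := by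
    have := hb f0 hf0 x0
    have := hb g0 hg0 x0
    omega
  have hD1 : 1 ≤ D.card := Finset.card_pos.2 ⟨x0, hx0⟩
  set good := F.filter (fun f => ∀ x ∈ D, 2 * h ≤ (F.filter (fun g => g x = f x)).card) with hgood
  set bad := F.filter (fun f => ¬ ∀ x ∈ D, 2 * h ≤ (F.filter (fun g => g x = f x)).card) with hbad
  have hsplit : good.card + bad.card = F.card := Finset.card_filter_add_card_filter_not _
  have hgood1 : good.card ≤ 1 := by
    rw [Finset.card_le_one]
    intro f hf g hg
    by_contra hne
    rw [hgood, Finset.mem_filter] at hf hg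
    obtain ⟨x, hx, hx'⟩ := hsep f hf.1 g hg.1 hne
    rcases hx' with hx' | hx'
    · have := hcon x hx (f x) (g x) hx' (hb g hg.1 x) (hf.2 x hx)
      exact absurd (hg.2 x hx) (not_le.2 this)
    · have := hcon x hx (g x) (f x) hx' (hb f hf.1 x) (hg.2 x hx)
      exact absurd (hf.2 x hx) (not_le.2 this)
  have hbadsub : bad ⊆ D.biUnion (fun x => (Finset.range b).biUnion (fun i =>
      if (F.filter (fun g => g x = i)).card < 2 * h then F.filter (fun g => g x = i) else ∅)) := by
    intro f hf
    rw [hbad, Finset.mem_filter] at hf
    obtain ⟨hfF, hf'⟩ := hf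
    push Not at hf'
    obtain ⟨x, hx, hlt⟩ := hf'
    rw [Finset.mem_biUnion]
    refine ⟨x, hx, ?_⟩
    rw [Finset.mem_biUnion]
    refine ⟨f x, Finset.mem_range.2 (hb f hfF x), ?_⟩
    rw [if_pos hlt, Finset.mem_filter]
    exact ⟨hfF, rfl⟩
  have hbadcard : bad.card ≤ D.card * (b * (2 * h - 1)) := by
    refine le_trans (Finset.card_le_card hbadsub) ?_
    apply Finset.card_biUnion_le_card_mul
    intro x _
    refine le_trans (Finset.card_biUnion_le_card_mul _ _ (2 * h - 1) ?_) (by simp)
    intro i _
    split_ifs with hlt
    · omega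
    · simp
  obtain ⟨q, hq⟩ : ∃ q, 2 * h = q + 1 := ⟨2 * h - 1, by omega⟩
  have hq' : 2 * h - 1 = q := by omega
  rw [hq'] at hbadcard
  have e1 : 2 * (D.card * b * h) = D.card * b * q + D.card * b := by
    have : 2 * (D.card * b * h) = D.card * b * (2 * h) := by ring
    rw [this, hq]; ring
  have e2 : D.card * (b * q) = D.card * b * q := by ring
  have hM : 3 ≤ D.card * b := by nlinarith
  omega

/-- a nonempty pattern supported in `D`, with levels below `b`, strongly shattered by `F` -/
def GoodPattern (D : Finset X) (b : ℕ) (F : Finset (X → ℕ)) (p : X → Option ℕ) : Prop :=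
  Shatters F p ∧ (∀ x, x ∉ D → p x = none) ∧ (∀ x s, p x = some s → s < b) ∧ (∃ x, p x ≠ none)

/-- **Many shattered patterns.** -/
theorem many_shattered [DecidableEq X] (b : ℕ) : ∀ (r : ℕ) (D : Finset X) (F : Finset (X → ℕ)),
    (∀ f ∈ F, ∀ x, f x < b) → Separated D F → 2 ≤ F.card → 2 * (D.card * b) ^ r ≤ F.card →
    ∃ S : Finset (X → Option ℕ), 2 ^ r ≤ S.card ∧ ∀ p ∈ S, GoodPattern D b F p := by
  have : DecidableEq (X → Option ℕ) := Classical.decEq _
  intro r
  induction r with
  | zero =>
    intro D F hb hsep h2 _
    obtain ⟨f0, hf0, g0, hg0, hne0⟩ := Finset.one_lt_card.1 (by omega : 1 < F.card)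
    obtain ⟨x, hx, hx'⟩ := hsep f0 hf0 g0 hg0 hne0
    -- without loss of generality `f x + 2 ≤ g x`
    obtain ⟨f, hf, g, hg, hfg⟩ : ∃ f ∈ F, ∃ g ∈ F, f x + 2 ≤ g x := by
      rcases hx' with h | h
      · exact ⟨f0, hf0, g0, hg0, h⟩
      · exact ⟨g0, hg0, f0, hf0, h⟩
    refine ⟨{Function.update (fun _ => none) x (some (f x + 1))}, by simp, ?_⟩
    intro p hp
    rw [Finset.mem_singleton] at hp
    subst hp
    refine ⟨?_, ?_, ?_, ⟨x, by simp⟩⟩
    · intro σ
      by_cases hσ : σ x
      · refine ⟨g, hg, ?_⟩
        intro y s hy
        by_cases hyx : y = x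
        · subst hyx
          simp only [Function.update_self, Option.some.injEq] at hy
          rw [if_pos hσ]; omega
        · simp [Function.update_of_ne hyx] at hy
      · refine ⟨f, hf, ?_⟩
        intro y s hy
        by_cases hyx : y = x
        · subst hyx
          simp only [Function.update_self, Option.some.injEq] at hy
          rw [if_neg hσ]; omega
        · simp [Function.update_of_ne hyx] at hy
    · intro y hy
      have : y ≠ x := fun h => hy (h ▸ hx)
      simp [Function.update_of_ne this]
    · intro y s hy
      by_cases hyx : y = x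
      · subst hyx
        simp only [Function.update_self, Option.some.injEq] at hy
        have := hb g hg y
        omega
      · simp [Function.update_of_ne hyx] at hy
  | succ r ih =>
    intro D F hb hsep h2 hcard
    obtain ⟨f0, hf0, g0, hg0, hne0⟩ := Finset.one_lt_card.1 (by omega : 1 < F.card)
    obtain ⟨x0, hx0, hx0'⟩ := hsep f0 hf0 g0 hg0 hne0
    have hb3 : 3 ≤ b := by
      have := hb f0 hf0 x0
      have := hb g0 hg0 x0
      omega
    have hD1 : 1 ≤ D.card := Finset.card_pos.2 ⟨x0, hx0⟩
    have hM : 1 ≤ D.card * b := by nlinarith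
    have hh : 1 ≤ (D.card * b) ^ r := Nat.one_le_pow _ _ hM
    have hcard' : 2 * (D.card * b * (D.card * b) ^ r) ≤ F.card := by
      rw [pow_succ] at hcard
      rw [mul_comm (D.card * b) ((D.card * b) ^ r)]
      exact hcard
    obtain ⟨x, hx, i, j, hij, hjb, hi, hj⟩ :=
      exists_two_popular b ((D.card * b) ^ r) hh D F hb hsep h2 hcard'
    have hpow : 2 * ((D.erase x).card * b) ^ r ≤ 2 * (D.card * b) ^ r := by
      apply Nat.mul_le_mul_left
      apply Nat.pow_le_pow_left
      apply Nat.mul_le_mul_right
      exact Finset.card_le_card (Finset.erase_subset _ _)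
    have hsepv : ∀ v : ℕ, Separated (D.erase x) (F.filter (fun f => f x = v)) := by
      intro v f hf g hg hne
      rw [Finset.mem_filter] at hf hg
      obtain ⟨y, hy, hy'⟩ := hsep f hf.1 g hg.1 hne
      refine ⟨y, Finset.mem_erase.2 ⟨?_, hy⟩, hy'⟩
      rintro rfl
      rw [hf.2, hg.2] at hy'
      omega
    have hbv : ∀ v : ℕ, ∀ f ∈ F.filter (fun f => f x = v), ∀ y, f y < b := fun v f hf y =>
      hb f (Finset.mem_filter.1 hf).1 y
    obtain ⟨S1, hS1, hS1'⟩ := ih (D.erase x) (F.filter (fun f => f x = i)) (hbv i) (hsepv i)
      (by omega) (by omega)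
    obtain ⟨S2, hS2, hS2'⟩ := ih (D.erase x) (F.filter (fun f => f x = j)) (hbv j) (hsepv j)
      (by omega) (by omega)
    have hnone : ∀ p ∈ S1 ∪ S2, p x = none := by
      intro p hp
      rcases Finset.mem_union.1 hp with hp | hp
      · exact (hS1' p hp).2.1 x (Finset.notMem_erase x D)
      · exact (hS2' p hp).2.1 x (Finset.notMem_erase x D)
    set up : (X → Option ℕ) → (X → Option ℕ) := fun p => Function.update p x (some (i + 1)) with hup
    have hinj : Set.InjOn up (↑(S1 ∩ S2) : Set (X → Option ℕ)) := by
      intro p hp q hq hpq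
      have hp' : p x = none := hnone p (Finset.mem_union_left _ (Finset.mem_inter.1 hp).1)
      have hq' : q x = none := hnone q (Finset.mem_union_left _ (Finset.mem_inter.1 hq).1)
      funext y
      by_cases hyx : y = x
      · rw [hyx, hp', hq']
      · have := congrFun hpq y
        simpa [hup, Function.update_of_ne hyx] using this
    have hdisj : Disjoint (S1 ∪ S2) ((S1 ∩ S2).image up) := by
      rw [Finset.disjoint_left]
      intro p hp hp'
      obtain ⟨q, _, rfl⟩ := Finset.mem_image.1 hp'
      have := hnone _ hp
      simp [hup] at this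
    refine ⟨(S1 ∪ S2) ∪ (S1 ∩ S2).image up, ?_, ?_⟩
    · rw [Finset.card_union_of_disjoint hdisj, Finset.card_image_of_injOn hinj,
        Finset.card_union_add_card_inter, pow_succ]
      omega
    · intro p hp
      have lift : ∀ v : ℕ, ∀ q, GoodPattern (D.erase x) b (F.filter (fun f => f x = v)) q →
          GoodPattern D b F q := by
        intro v q hq
        refine ⟨hq.1.mono (Finset.filter_subset _ _), ?_, hq.2.2.1, hq.2.2.2⟩
        intro y hy
        exact hq.2.1 y (fun h => hy (Finset.mem_of_mem_erase h))
      rcases Finset.mem_union.1 hp with hp | hp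
      · rcases Finset.mem_union.1 hp with hp | hp
        · exact lift i p (hS1' p hp)
        · exact lift j p (hS2' p hp)
      · obtain ⟨q, hq, rfl⟩ := Finset.mem_image.1 hp
        obtain ⟨hq1, hq2⟩ := Finset.mem_inter.1 hq
        have g1 := hS1' q hq1
        have g2 := hS2' q hq2
        refine ⟨?_, ?_, ?_, ⟨x, by simp [hup]⟩⟩
        · intro σ
          by_cases hσ : σ x
          · obtain ⟨g, hg, hg'⟩ := g2.1 σ
            rw [Finset.mem_filter] at hg
            refine ⟨g, hg.1, ?_⟩
            intro y s hy
            by_cases hyx : y = x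
            · subst hyx
              simp only [hup, Function.update_self, Option.some.injEq] at hy
              rw [if_pos hσ, hg.2]; omega
            · simp only [hup, Function.update_of_ne hyx] at hy
              exact hg' y s hy
          · obtain ⟨f, hf, hf'⟩ := g1.1 σ
            rw [Finset.mem_filter] at hf
            refine ⟨f, hf.1, ?_⟩
            intro y s hy
            by_cases hyx : y = x
            · subst hyx
              simp only [hup, Function.update_self, Option.some.injEq] at hy
              rw [if_neg hσ, hf.2]; omega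
            · simp only [hup, Function.update_of_ne hyx] at hy
              exact hf' y s hy
        · intro y hy
          have hyx : y ≠ x := fun h => hy (h ▸ hx)
          simp only [hup, Function.update_of_ne hyx]
          exact g1.2.1 y (fun h => hy (Finset.mem_of_mem_erase h))
        · intro y s hy
          by_cases hyx : y = x
          · subst hyx
            simp only [hup, Function.update_self, Option.some.injEq] at hy
            omega
          · simp only [hup, Function.update_of_ne hyx] at hy
            exact g1.2.2.1 y s hy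

/-- the support of a pattern -/
noncomputable def supp [Fintype X] (p : X → Option ℕ) : Finset X :=
  have : DecidablePred (fun x => p x ≠ none) := Classical.decPred _
  Finset.univ.filter (fun x => p x ≠ none)

theorem mem_supp [Fintype X] {p : X → Option ℕ} {x : X} : x ∈ supp p ↔ p x ≠ none := by
  simp [supp]

/-- all patterns with support of size at most `d` and levels below `b` -/
noncomputable def patterns [Fintype X] [DecidableEq X] (b : ℕ) : ℕ → Finset (X → Option ℕ)
  | 0 => {fun _ => none}
  | d + 1 =>
    patterns b d ∪ ((patterns b d) ×ˢ ((Finset.univ : Finset X) ×ˢ Finset.range b)).image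
      (fun q => Function.update q.1 q.2.1 (some q.2.2))

theorem card_patterns_le [Fintype X] [DecidableEq X] (b d : ℕ) :
    (patterns (X := X) b d).card ≤ (Fintype.card X * b + 1) ^ d := by
  induction d with
  | zero => simp [patterns]
  | succ d ih =>
    rw [patterns]
    refine le_trans (Finset.card_union_le _ _) ?_
    refine le_trans (Nat.add_le_add_left Finset.card_image_le _) ?_
    rw [Finset.card_product, Finset.card_product, Finset.card_univ, Finset.card_range, pow_succ]
    calc (patterns (X := X) b d).card + (patterns (X := X) b d).card * (Fintype.card X * b)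
        = (patterns (X := X) b d).card * (Fintype.card X * b + 1) := by ring
      _ ≤ _ := Nat.mul_le_mul_right _ ih

theorem mem_patterns [Fintype X] [DecidableEq X] (b : ℕ) : ∀ (d : ℕ) (p : X → Option ℕ),
    (supp p).card ≤ d → (∀ x s, p x = some s → s < b) → p ∈ patterns b d := by
  intro d
  induction d with
  | zero =>
    intro p hp _
    rw [patterns, Finset.mem_singleton]
    funext x
    have h0 : supp p = ∅ := Finset.card_eq_zero.1 (by omega)
    by_contra hx
    have : x ∈ supp p := mem_supp.2 hx
    rw [h0] at this
    simp at this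
  | succ d ih =>
    intro p hp hb
    rw [patterns]
    by_cases hd : (supp p).card ≤ d
    · exact Finset.mem_union_left _ (ih p hd hb)
    · have hne : (supp p).Nonempty := Finset.card_pos.1 (by omega)
      obtain ⟨x, hx⟩ := hne
      obtain ⟨s, hs⟩ := Option.ne_none_iff_exists'.1 (mem_supp.1 hx)
      apply Finset.mem_union_right
      rw [Finset.mem_image]
      refine ⟨(Function.update p x none, (x, s)), ?_, ?_⟩
      · rw [Finset.mem_product, Finset.mem_product]
        refine ⟨ih _ ?_ ?_, Finset.mem_univ _, Finset.mem_range.2 (hb x s hs)⟩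
        · have : supp (Function.update p x none) = (supp p).erase x := by
            ext y
            rw [mem_supp, Finset.mem_erase, mem_supp]
            by_cases hyx : y = x
            · subst hyx; simp
            · simp [hyx]
          rw [this, Finset.card_erase_of_mem hx]
          omega
        · intro y t hy
          by_cases hyx : y = x
          · subst hyx; simp at hy
          · simp only [Function.update_of_ne hyx] at hy
            exact hb y t hy
      · simp only [Function.update_idem]
        rw [← hs]
        exact Function.update_eq_self x p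

/-- **Packing bound.** A pairwise separated family of functions `X → {0,…,b-1}` all of whose
strongly shattered patterns have support of size at most `d` has fewer than `2 (|X| b)^r`
members as soon as `(|X| b + 1)^d < 2^r`. -/
theorem card_lt_of_shatter_bound [Fintype X] [DecidableEq X] (b d r : ℕ) (F : Finset (X → ℕ))
    (hb : ∀ f ∈ F, ∀ x, f x < b) (hsep : Separated Finset.univ F)
    (hd : ∀ p : X → Option ℕ, Shatters F p → (supp p).card ≤ d)
    (hr : (Fintype.card X * b + 1) ^ d < 2 ^ r) (h2 : 2 ≤ F.card) :
    F.card < 2 * (Fintype.card X * b) ^ r := by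
  by_contra hcon
  push Not at hcon
  obtain ⟨S, hS, hS'⟩ := many_shattered b r Finset.univ F hb hsep h2 (by simpa using hcon)
  have hsub : S ⊆ patterns b d := by
    intro p hp
    obtain ⟨h1, _, h3, _⟩ := hS' p hp
    exact mem_patterns b d p (hd p h1) h3
  have := Finset.card_le_card hsub
  have := card_patterns_le (X := X) b d
  omega

end Vale.Agent.P126
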